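import Mathlib

open Filter Topology Metric
open scoped RealInnerProductSpace NNReal

namespace Vale.Agent.P121

variable {E : Type*} [NormedAddCommGroup E] [InnerProductSpace ℝ E]

noncomputable def kk (x : E) : E := (‖x‖⁻¹ ^ 3) • x

noncomputable def uB (p b : E) : ℝ :=
  -(5 / 4) * ⟪p, b - p⟫ + (3 / 2) * ⟪p, b - p⟫ ^ 2 - ‖b - p‖ ^ 2

noncomputable def cR (a b c : E) : ℝ := ‖a - b‖⁻¹ + ‖a - c‖⁻¹ + ‖b - c‖⁻¹

noncomputable def FF (p a b c : E) : ℝ := cR a b c + 2 * ‖a‖ ^ 2 - uB p b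

noncomputable def GG (p : E) (z : E × E × E) : E × E :=
  (-kk (z.1 - z.2.1) - kk (z.1 - z.2.2) + (4 : ℝ) • z.1,
    kk (z.1 - z.2.1) - kk (z.2.1 - z.2.2) + (5 / 4 : ℝ) • p - (3 * ⟪p, z.2.1 - p⟫) • p +
      (2 : ℝ) • (z.2.1 - p))

lemma hasStrict_norm (x : E) (hx : x ≠ 0) :
    HasStrictFDerivAt (fun y : E => ‖y‖) (‖x‖⁻¹ • innerSL ℝ x) x := by
  have hn : 0 < ‖x‖ := norm_pos_iff.2 hx
  have h := (hasStrictFDerivAt_norm_sq x).sqrt (by positivity)
  have e : (fun y : E => √(‖y‖ ^ 2)) = fun y : E => ‖y‖ := by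
    funext y; exact Real.sqrt_sq (norm_nonneg y)
  rw [e, Real.sqrt_sq hn.le] at h
  convert h using 1
  ext v
  simp
  field_simp

lemma hasStrict_inv_norm (x : E) (hx : x ≠ 0) :
    HasStrictFDerivAt (fun y : E => ‖y‖⁻¹) (-(innerSL ℝ (kk x))) x := by
  have hn : 0 < ‖x‖ := norm_pos_iff.2 hx
  have h := (hasStrictDerivAt_inv hn.ne').comp_hasStrictFDerivAt x (hasStrict_norm x hx)
  refine HasStrictFDerivAt.congr_fderiv h ?_
  ext v
  simp [kk, real_inner_smul_left]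
  field_simp

lemma hasStrict_kk (x : E) (hx : x ≠ 0) : ∃ L : E →L[ℝ] E, HasStrictFDerivAt kk L x ∧
    ∀ h, L h = (‖x‖⁻¹ ^ 3) • h - (3 * ‖x‖⁻¹ ^ 5 * ⟪x, h⟫) • x := by
  have hn : 0 < ‖x‖ := norm_pos_iff.2 hx
  have h1 := ((hasStrict_inv_norm x hx).pow 3).smul (hasStrictFDerivAt_id x)
  refine ⟨_, h1, fun h => ?_⟩
  simp [kk, real_inner_smul_left, sub_eq_add_neg, ← neg_smul]
  congr 1
  field_simp

/-- the operator `h ↦ h - 3 ⟪p, h⟫ p` -/
noncomputable def MM (p h : E) : E := h - (3 * ⟪p, h⟫) • p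

lemma hasStrict_GG (p : E) (hp : ‖p‖ = 1) : ∃ L : E × E × E →L[ℝ] E × E,
    HasStrictFDerivAt (GG p) L (0, p, -p) ∧ ∀ α β γ : E, L (α, β, γ) =
      (-MM p (α - β) - MM p (α - γ) + (4 : ℝ) • α,
        MM p (α - β) - (1 / 8 : ℝ) • MM p (β - γ) - (3 * ⟪p, β⟫) • p + (2 : ℝ) • β) := by
  have hp0 : p ≠ 0 := by rintro rfl; simp at hp
  obtain ⟨L₁, hL₁, e₁⟩ := hasStrict_kk ((0 : E) - p) (by simpa using hp0)
  obtain ⟨L₂, hL₂, e₂⟩ := hasStrict_kk ((0 : E) - -p) (by simpa using hp0)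
  have h2p : p - -p = (2 : ℝ) • p := by rw [sub_neg_eq_add, two_smul]
  have hn2 : ‖p - -p‖ = 2 := by rw [h2p, norm_smul, hp]; simp
  obtain ⟨L₃, hL₃, e₃⟩ := hasStrict_kk (p - -p) (by
    intro h; rw [h] at hn2; simp at hn2)
  have f1 : HasStrictFDerivAt (fun z : E × E × E => z.1) (ContinuousLinearMap.fst ℝ E (E × E))
      (0, p, -p) := hasStrictFDerivAt_fst
  have f2 : HasStrictFDerivAt (fun z : E × E × E => z.2.1)
      ((ContinuousLinearMap.fst ℝ E E).comp (ContinuousLinearMap.snd ℝ E (E × E))) (0, p, -p) :=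
    hasStrictFDerivAt_fst.comp _ hasStrictFDerivAt_snd
  have f3 : HasStrictFDerivAt (fun z : E × E × E => z.2.2)
      ((ContinuousLinearMap.snd ℝ E E).comp (ContinuousLinearMap.snd ℝ E (E × E))) (0, p, -p) :=
    hasStrictFDerivAt_snd.comp _ hasStrictFDerivAt_snd
  have g1 := HasStrictFDerivAt.comp (f := fun z : E × E × E => z.1 - z.2.1) (0, p, -p) hL₁
    (f1.sub f2)
  have g2 := HasStrictFDerivAt.comp (f := fun z : E × E × E => z.1 - z.2.2) (0, p, -p) hL₂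
    (f1.sub f3)
  have g3 := HasStrictFDerivAt.comp (f := fun z : E × E × E => z.2.1 - z.2.2) (0, p, -p) hL₃
    (f2.sub f3)
  have g4 := (innerSL ℝ p).hasStrictFDerivAt.comp (0, p, -p) (f2.sub_const p)
  have hG := ((g1.neg.sub g2).add (f1.const_smul (4 : ℝ))).prodMk
    ((((g1.sub g3).add_const ((5 / 4 : ℝ) • p)).sub ((g4.const_mul 3).smul_const p)).add
      ((f2.sub_const p).const_smul (2 : ℝ)))
  refine ⟨_, hG, fun α β γ => ?_⟩
  have n1 : ‖(0 : E) - p‖ = 1 := by simp [hp]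
  have n2 : ‖(0 : E) - -p‖ = 1 := by simp [hp]
  rw [n1] at e₁
  rw [n2] at e₂
  rw [hn2, h2p] at e₃
  have a1 : ∀ h, L₁ h = MM p h := fun h => by rw [e₁]; simp [MM]
  have a2 : ∀ h, L₂ h = MM p h := fun h => by rw [e₂]; simp [MM]
  have a3 : ∀ h, L₃ h = (1 / 8 : ℝ) • MM p h := fun h => by
    rw [e₃, MM, real_inner_smul_left, smul_smul, smul_sub, smul_smul]
    congr 2 <;> ring
  simp [a1, a2, a3, MM, inner_sub_right]
  constructor <;> module

lemma GG_center (p : E) (hp : ‖p‖ = 1) : GG p (0, p, -p) = 0 := by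
  have h2p : p + p = (2 : ℝ) • p := by rw [two_smul]
  have hn2 : ‖p + p‖ = 2 := by rw [h2p, norm_smul, hp]; simp
  simp only [GG, kk, zero_sub, neg_neg, sub_neg_eq_add, norm_neg, hp, hn2, sub_self,
    inner_zero_right, Prod.mk_eq_zero]
  constructor
  · simp [hp]
  · rw [h2p]; module

lemma quad_pos (p : E) (hp : ‖p‖ = 1) (α β : E) :
    (1 / 4) * (‖α‖ ^ 2 + ‖β‖ ^ 2) ≤ ⟪-MM p (α - β) - MM p (α - 0) + (4 : ℝ) • α, α⟫ +
      ⟪MM p (α - β) - (1 / 8 : ℝ) • MM p (β - 0) - (3 * ⟪p, β⟫) • p + (2 : ℝ) • β, β⟫ := by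
  have hpp : ⟪p, p⟫ = 1 := by rw [real_inner_self_eq_norm_sq, hp]; norm_num
  have h1 := real_inner_self_nonneg (x := (9 / 7 : ℝ) • (α - ⟪p, α⟫ • p) +
    (7 / 9 : ℝ) • (β - ⟪p, β⟫ • p))
  have h2 := real_inner_self_nonneg (x := α - ⟪p, α⟫ • p)
  have h3 := real_inner_self_nonneg (x := β - ⟪p, β⟫ • p)
  simp only [MM, sub_zero, inner_add_left, inner_add_right, inner_sub_left, inner_sub_right,
    inner_neg_left, real_inner_smul_left, real_inner_smul_right, hpp, real_inner_comm α β,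
    real_inner_comm α p, real_inner_comm β p, ← real_inner_self_eq_norm_sq] at h1 h2 h3 ⊢
  nlinarith [sq_nonneg (⟪α, p⟫ - ⟪β, p⟫ / 4), sq_nonneg ⟪β, p⟫, sq_nonneg ⟪α, p⟫]

lemma hasDerivAt_inv_norm {γ : ℝ → E} {v : E} {t : ℝ} (h : HasDerivAt γ v t) (h0 : γ t ≠ 0) :
    HasDerivAt (fun s => ‖γ s‖⁻¹) (-⟪kk (γ t), v⟫) t := by
  exact (hasStrict_inv_norm (γ t) h0).hasFDerivAt.comp_hasDerivAt t h

lemma hasDerivAt_FF (p a b c α β : E) (t : ℝ) (h1 : a + t • α - (b + t • β) ≠ 0)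
    (h2 : a + t • α - c ≠ 0) (h3 : b + t • β - c ≠ 0) :
    HasDerivAt (fun s : ℝ => FF p (a + s • α) (b + s • β) c)
      (⟪(GG p (a + t • α, b + t • β, c)).1, α⟫ + ⟪(GG p (a + t • α, b + t • β, c)).2, β⟫) t := by
  have da : HasDerivAt (fun s : ℝ => a + s • α) α t := by
    simpa using ((hasDerivAt_id t).smul_const α).const_add a
  have db : HasDerivAt (fun s : ℝ => b + s • β) β t := by
    simpa using ((hasDerivAt_id t).smul_const β).const_add b
  have d1 := hasDerivAt_inv_norm (da.sub db) h1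
  have d2 := hasDerivAt_inv_norm (da.sub_const c) h2
  have d3 := hasDerivAt_inv_norm (db.sub_const c) h3
  have d4 := da.norm_sq
  have d5 := (db.sub_const p).norm_sq
  have d6 : HasDerivAt (fun s : ℝ => ⟪p, b + s • β - p⟫) ⟪p, β⟫ t := by
    exact (innerSL ℝ p).hasFDerivAt.comp_hasDerivAt t (db.sub_const p)
  have := (((d1.add d2).add d3).add (d4.const_mul 2)).sub
    (((d6.const_mul (-(5 / 4))).add ((d6.pow 2).const_mul (3 / 2))).sub d5)
  refine HasDerivAt.congr_deriv this ?_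
  simp only [GG, inner_add_left, inner_sub_left, inner_neg_left, real_inner_smul_left,
    inner_sub_right, Pi.sub_apply]
  ring

lemma antilip {X Y : Type*} [NormedAddCommGroup X] [NormedSpace ℝ X] [FiniteDimensional ℝ X]
    [NormedAddCommGroup Y] [NormedSpace ℝ Y] {f : X → Y} {f' : X →L[ℝ] Y} {x₀ : X}
    (hf : HasStrictFDerivAt f f' x₀) (hinj : ∀ v, f' v = 0 → v = 0) :
    ∃ s ∈ 𝓝 x₀, ∃ C : ℝ, 0 ≤ C ∧ ∀ z ∈ s, ∀ z' ∈ s, ‖z - z'‖ ≤ C * ‖f z - f z'‖ := by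
  obtain ⟨K, hK, hA⟩ := LinearMap.exists_antilipschitzWith (f' : X →ₗ[ℝ] Y)
    (LinearMap.ker_eq_bot'.2 hinj)
  obtain ⟨s, hs, happ⟩ := hf.approximates_deriv_on_nhds (c := (2 * K)⁻¹) (Or.inr (by positivity))
  refine ⟨s, hs, 2 * K, by positivity, fun z hz z' hz' => ?_⟩
  have h1 := happ z hz z' hz'
  have h2 : ‖z - z'‖ ≤ K * ‖f' (z - z')‖ := by
    simpa using ZeroHomClass.bound_of_antilipschitz (f' : X →ₗ[ℝ] Y) hA (z - z')
  have h3 : ‖f' (z - z')‖ ≤ ‖f z - f z'‖ + ‖f z - f z' - f' (z - z')‖ := by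
    have := norm_sub_le (f z - f z') (f z - f z' - f' (z - z'))
    simpa using this
  have hK' : (0 : ℝ) < K := hK
  push_cast at h1
  have h4 : (K : ℝ) * ((2 * (K : ℝ))⁻¹ * ‖z - z'‖) = ‖z - z'‖ / 2 := by field_simp
  nlinarith

lemma MM_eq_zero (p : E) (hp : ‖p‖ = 1) (x : E) (s t : ℝ) (hs : s ≠ 0) (hst : s + t ≠ 0)
    (h : s • x + (t * ⟪p, x⟫) • p = 0) : x = 0 := by
  have hpp : ⟪p, p⟫ = 1 := by rw [real_inner_self_eq_norm_sq, hp]; norm_num
  have h1 := congrArg (fun y => ⟪p, y⟫) h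
  simp only [inner_add_right, real_inner_smul_right, hpp, inner_zero_right] at h1
  have h2 : ⟪p, x⟫ = 0 := by
    have : (s + t) * ⟪p, x⟫ = 0 := by linarith
    exact (mul_eq_zero.1 this).resolve_left hst
  rw [h2] at h
  simpa [hs] using h

/-- the kernel of the linearised equations is a graph over each coordinate -/
lemma kernel (p : E) (hp : ‖p‖ = 1) (α β γ : E)
    (h1 : -MM p (α - β) - MM p (α - γ) + (4 : ℝ) • α = 0)
    (h2 : MM p (α - β) - (1 / 8 : ℝ) • MM p (β - γ) - (3 * ⟪p, β⟫) • p + (2 : ℝ) • β = 0)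
    (h : α = 0 ∨ β = 0 ∨ γ = 0) : α = 0 ∧ β = 0 ∧ γ = 0 := by
  have hpp : ⟪p, p⟫ = 1 := by rw [real_inner_self_eq_norm_sq, hp]; norm_num
  have k1 := congrArg (fun y => ⟪p, y⟫) h1
  have k2 := congrArg (fun y => ⟪p, y⟫) h2
  simp only [MM, inner_add_right, inner_sub_right, inner_neg_right, real_inner_smul_right, hpp,
    inner_zero_right] at k1 k2 h1 h2
  have hs : ⟪p, α⟫ = 0 ∧ ⟪p, β⟫ = 0 ∧ ⟪p, γ⟫ = 0 := by
    rcases h with rfl | rfl | rfl <;> simp only [inner_zero_right] at k1 k2 ⊢ <;>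
      refine ⟨?_, ?_, ?_⟩ <;> first | trivial | linarith
  obtain ⟨s1, s2, s3⟩ := hs
  simp only [s1, s2, s3, sub_self, mul_zero, zero_smul, sub_zero] at h1 h2
  rcases h with rfl | rfl | rfl
  · have e1 : β = 0 := by
      have : (3 / 4 : ℝ) • β = 0 := by linear_combination (norm := module) h2 - (1 / 8 : ℝ) • h1
      simpa using this
    subst e1
    exact ⟨rfl, rfl, by simpa using h1⟩
  · have e1 : α = 0 := by
      have : (3 / 4 : ℝ) • α = 0 := by linear_combination (norm := module) h2 - (1 / 8 : ℝ) • h1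
      simpa using this
    subst e1
    exact ⟨rfl, rfl, by simpa using h1⟩
  · have e1 : β = 0 := by
      have : (3 / 4 : ℝ) • β = 0 := by linear_combination (norm := module) (2 : ℝ) • h2 - h1
      simpa using this
    subst e1
    exact ⟨by simpa using h2, rfl, rfl⟩

set_option maxHeartbeats 1000000 in
theorem branch [FiniteDimensional ℝ E] (p : E) (hp : ‖p‖ = 1) (ρ₀ : ℝ) (hρ₀ : 0 < ρ₀) :
    ∃ r > 0, ∃ S R : E → E, ∃ L : ℝ, 0 ≤ L ∧ r ≤ ρ₀ ∧ ContinuousOn S (ball 0 r) ∧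
      ContinuousOn R (ball 0 r) ∧ (∀ a ∈ ball (0 : E) r, S a ∈ ball p ρ₀ ∧ R a ∈ ball (-p) ρ₀) ∧
      (∀ a ∈ ball (0 : E) r, ∀ a' ∈ ball (0 : E) r,
        ‖a - a'‖ ≤ L * ‖S a - S a'‖ ∧ ‖a - a'‖ ≤ L * ‖R a - R a'‖) ∧
      (∀ a ∈ ball (0 : E) r, ∀ a' ∈ ball (0 : E) r, ∀ a'' ∈ ball (0 : E) r,
        FF p a (S a) (R a) ≤ FF p a' (S a'') (R a) ∧
        (FF p a' (S a'') (R a) ≤ FF p a (S a) (R a) → a' = a)) := by
  have := FiniteDimensional.complete ℝ E
  obtain ⟨L, hL, eL⟩ := hasStrict_GG p hp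
  set z₀ : E × E × E := (0, p, -p) with hz₀
  have f1 : HasStrictFDerivAt (fun z : E × E × E => z.1) (ContinuousLinearMap.fst ℝ E (E × E))
      z₀ := hasStrictFDerivAt_fst
  have f2 : HasStrictFDerivAt (fun z : E × E × E => z.2.1)
      ((ContinuousLinearMap.fst ℝ E E).comp (ContinuousLinearMap.snd ℝ E (E × E))) z₀ :=
    hasStrictFDerivAt_fst.comp _ hasStrictFDerivAt_snd
  have f3 : HasStrictFDerivAt (fun z : E × E × E => z.2.2)
      ((ContinuousLinearMap.snd ℝ E E).comp (ContinuousLinearMap.snd ℝ E (E × E))) z₀ :=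
    hasStrictFDerivAt_snd.comp _ hasStrictFDerivAt_snd
  have hker : ∀ v : E × E × E, L v = 0 → (v.1 = 0 ∨ v.2.1 = 0 ∨ v.2.2 = 0) → v = 0 := by
    rintro ⟨α, β, γ⟩ h1 h2
    rw [eL, Prod.mk_eq_zero] at h1
    obtain ⟨rfl, rfl, rfl⟩ := kernel p hp α β γ h1.1 h1.2 h2
    rfl
  obtain ⟨s₂, hs₂, C₂, hC₂, hanti₂⟩ := antilip (f2.prodMk hL) (fun v hv => by
    simp only [ContinuousLinearMap.prod_apply, Prod.mk_eq_zero] at hv
    exact hker v hv.2 (Or.inr (Or.inl hv.1)))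
  obtain ⟨s₃, hs₃, C₃, hC₃, hanti₃⟩ := antilip (f3.prodMk hL) (fun v hv => by
    simp only [ContinuousLinearMap.prod_apply, Prod.mk_eq_zero] at hv
    exact hker v hv.2 (Or.inr (Or.inr hv.1)))
  obtain ⟨s₁, hs₁, happ⟩ := hL.approximates_deriv_on_nhds (c := 1 / 16) (Or.inr (by norm_num))
  obtain ⟨ρ₁, hρ₁, hball⟩ := Metric.mem_nhds_iff.1 (inter_mem hs₁ (inter_mem hs₂ hs₃))
  set ρ := min ρ₁ (min ρ₀ (1 / 4)) with hρ
  have hρpos : 0 < ρ := lt_min hρ₁ (lt_min hρ₀ (by norm_num))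
  have hρa : ρ ≤ ρ₁ := min_le_left _ _
  have hρb : ρ ≤ ρ₀ := (min_le_right _ _).trans (min_le_left _ _)
  have hρc : ρ ≤ 1 / 4 := (min_le_right _ _).trans (min_le_right _ _)
  clear_value ρ
  have hball' : ball z₀ ρ ⊆ s₁ ∩ (s₂ ∩ s₃) := (ball_subset_ball hρa).trans hball
  -- the inverse function theorem
  set D : (E × E × E) →L[ℝ] (E × E × E) := (ContinuousLinearMap.fst ℝ E (E × E)).prod L with hD
  have hDinj : Function.Injective D := by
    rw [injective_iff_map_eq_zero]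
    intro v hv
    simp only [hD, ContinuousLinearMap.prod_apply, Prod.mk_eq_zero] at hv
    exact hker v hv.2 (Or.inl hv.1)
  set De : (E × E × E) ≃L[ℝ] (E × E × E) :=
    (LinearEquiv.ofInjectiveEndo (D : (E × E × E) →ₗ[ℝ] (E × E × E)) hDinj).toContinuousLinearEquiv
    with hDe
  have hΦ : HasStrictFDerivAt (fun z : E × E × E => (z.1, GG p z))
      (De : (E × E × E) →L[ℝ] (E × E × E)) z₀ := by
    refine HasStrictFDerivAt.congr_fderiv (f1.prodMk hL) ?_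
    ext v <;> simp [hDe, hD]
  set e := hΦ.toOpenPartialHomeomorph _ with he
  have hΦ0 : ((z₀.1, GG p z₀) : E × E × E) = 0 := by
    rw [hz₀, GG_center p hp]; rfl
  have ht : (0 : E × E × E) ∈ e.target := hΦ0 ▸ hΦ.image_mem_toOpenPartialHomeomorph_target
  have hs0 : e.symm 0 = z₀ := by
    rw [← hΦ0]; exact e.left_inv hΦ.mem_toOpenPartialHomeomorph_source
  have hι : Continuous fun a : E => ((a, 0) : E × E × E) := by fun_prop
  have hev1 : ∀ᶠ a in 𝓝 (0 : E), ((a, 0) : E × E × E) ∈ e.target :=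
    hι.continuousAt.eventually_mem (e.open_target.mem_nhds ht)
  have hev2 : ∀ᶠ a in 𝓝 (0 : E), e.symm (a, 0) ∈ ball z₀ ρ := by
    have h1 : ContinuousAt (fun a : E => e.symm (a, 0)) 0 :=
      ContinuousAt.comp (f := fun a : E => ((a, 0) : E × E × E)) (e.continuousAt_symm ht)
        hι.continuousAt
    apply h1.eventually_mem
    change ball z₀ ρ ∈ 𝓝 (e.symm 0)
    rw [hs0]
    exact ball_mem_nhds _ hρpos
  obtain ⟨r₁, hr₁, hr⟩ := Metric.eventually_nhds_iff_ball.1 (hev1.and hev2)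
  set r := min r₁ ρ with hrdef
  have hr' : ∀ a ∈ ball (0 : E) r, ((a, 0) : E × E × E) ∈ e.target ∧ e.symm (a, 0) ∈ ball z₀ ρ :=
    fun a ha => hr a (ball_subset_ball (min_le_left _ _) ha)
  set S : E → E := fun a => (e.symm (a, 0)).2.1 with hS
  set R : E → E := fun a => (e.symm (a, 0)).2.2 with hR
  have hcont : ContinuousOn (fun a : E => e.symm (a, 0)) (ball 0 r) :=
    e.continuousOn_symm.comp hι.continuousOn (fun a ha => (hr' a ha).1)
  have hkey : ∀ a ∈ ball (0 : E) r, (a, S a, R a) ∈ ball z₀ ρ ∧ GG p (a, S a, R a) = 0 := by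
    intro a ha
    have h1 := e.right_inv (hr' a ha).1
    rw [he, HasStrictFDerivAt.toOpenPartialHomeomorph_coe, ← he, Prod.mk.injEq] at h1
    have h2 : e.symm (a, 0) = (a, S a, R a) := Prod.ext h1.1 rfl
    rw [← h2]
    exact ⟨(hr' a ha).2, h1.2⟩
  have hmem : ∀ a b c : E, (a, b, c) ∈ ball z₀ ρ ↔ ‖a‖ < ρ ∧ ‖b - p‖ < ρ ∧ ‖c + p‖ < ρ := by
    intro a b c
    simp [hz₀, mem_ball, Prod.dist_eq, dist_eq_norm]
  refine ⟨r, lt_min hr₁ hρpos, S, R, C₂ + C₃, by positivity, (min_le_right _ _).trans hρb,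
    (continuous_fst.comp continuous_snd).comp_continuousOn hcont,
    (continuous_snd.comp continuous_snd).comp_continuousOn hcont, fun a ha => ?_,
    fun a ha a' ha' => ?_, fun a ha a' ha' a'' ha'' => ?_⟩
  · obtain ⟨-, h2, h3⟩ := (hmem _ _ _).1 (hkey a ha).1
    rw [mem_ball, mem_ball, dist_eq_norm, dist_eq_norm, sub_neg_eq_add]
    exact ⟨h2.trans_le hρb, h3.trans_le hρb⟩
  · obtain ⟨h1, h2⟩ := hkey a ha
    obtain ⟨h1', h2'⟩ := hkey a' ha'
    have k2 := hanti₂ _ (hball' h1).2.1 _ (hball' h1').2.1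
    have k3 := hanti₃ _ (hball' h1).2.2 _ (hball' h1').2.2
    simp only [h2, h2', Prod.mk_sub_mk, sub_self, Prod.norm_mk, norm_zero] at k2 k3
    rw [max_eq_left (norm_nonneg _)] at k2 k3
    have k2' := (le_max_left _ _).trans k2
    have k3' := (le_max_left _ _).trans k3
    constructor
    · nlinarith [norm_nonneg (S a - S a')]
    · nlinarith [norm_nonneg (R a - R a')]
  · obtain ⟨h1, h2⟩ := hkey a ha
    obtain ⟨h1', -⟩ := hkey a' ha'
    obtain ⟨h1'', -⟩ := hkey a'' ha''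
    have h3 : (a', S a'', R a) ∈ ball z₀ ρ :=
      (hmem _ _ _).2 ⟨((hmem _ _ _).1 h1').1, ((hmem _ _ _).1 h1'').2.1, ((hmem _ _ _).1 h1).2.2⟩
    set α := a' - a with hα
    set β := S a'' - S a with hβ
    have hseg : ∀ t ∈ Set.Icc (0 : ℝ) 1, (a + t • α, S a + t • β, R a) ∈ ball z₀ ρ := by
      intro t ht
      have := (convex_ball z₀ ρ).add_smul_sub_mem h1 h3 ht
      simpa [hα, hβ] using this
    have hder : ∀ t ∈ Set.Icc (0 : ℝ) 1, HasDerivAt (fun s : ℝ => FF p (a + s • α) (S a + s • β) (R a))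
        (⟪(GG p (a + t • α, S a + t • β, R a)).1, α⟫ +
          ⟪(GG p (a + t • α, S a + t • β, R a)).2, β⟫) t := by
      intro t ht
      obtain ⟨m1, m2, m3⟩ := (hmem _ _ _).1 (hseg t ht)
      apply hasDerivAt_FF
      · intro h
        have h4 : p = (a + t • α) - (S a + t • β - p) := by rw [sub_eq_zero.1 h]; simp
        have := norm_sub_le (a + t • α) (S a + t • β - p)
        rw [← h4, hp] at this
        linarith
      · intro h
        have h4 : p = (R a + p) - (a + t • α) := by rw [sub_eq_zero.1 h]; simp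
        have := norm_sub_le (R a + p) (a + t • α)
        rw [← h4, hp] at this
        linarith
      · intro h
        have h4 : (2 : ℝ) • p = (R a + p) - (S a + t • β - p) := by
          rw [sub_eq_zero.1 h]; module
        have := norm_sub_le (R a + p) (S a + t • β - p)
        rw [← h4, norm_smul, hp] at this
        simp at this
        linarith
    obtain ⟨t, ht, hmvt⟩ := exists_hasDerivAt_eq_slope
      (fun s : ℝ => FF p (a + s • α) (S a + s • β) (R a)) _ (zero_lt_one' ℝ)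
      (fun t ht => (hder t ht).continuousAt.continuousWithinAt)
      (fun t ht => hder t (Set.Ioo_subset_Icc_self ht))
    simp only [one_smul, zero_smul, add_zero, sub_zero, div_one, hα, hβ, add_sub_cancel] at hmvt
    rw [← hα, ← hβ] at hmvt
    have happ' := happ _ (hball' (hseg t (Set.Ioo_subset_Icc_self ht))).1 _ (hball' h1).1
    have e1 : ((a + t • α, S a + t • β, R a) : E × E × E) - (a, S a, R a) = t • (α, β, 0) := by
      simp
    rw [h2, sub_zero, e1, map_smul, eL, norm_smul, Real.norm_of_nonneg ht.1.le] at happ'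
    set m := ‖((α, β, 0) : E × E × E)‖ with hm
    have hm1 : ‖α‖ ≤ m := le_max_left _ _
    have hm2 : ‖β‖ ≤ m := (le_max_left _ _).trans (le_max_right _ _)
    have hm3 : m ^ 2 ≤ ‖α‖ ^ 2 + ‖β‖ ^ 2 := by
      rw [hm]
      simp only [Prod.norm_mk, norm_zero]
      rw [max_eq_left (norm_nonneg β)]
      rcases le_total ‖α‖ ‖β‖ with h | h
      · rw [max_eq_right h]; nlinarith [sq_nonneg ‖α‖]
      · rw [max_eq_left h]; nlinarith [sq_nonneg ‖β‖]
    have hq := quad_pos p hp α β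
    set g := GG p (a + t • α, S a + t • β, R a) with hg
    set l1 := -MM p (α - β) - MM p (α - 0) + (4 : ℝ) • α with hl1
    set l2 := MM p (α - β) - (1 / 8 : ℝ) • MM p (β - 0) - (3 * ⟪p, β⟫) • p + (2 : ℝ) • β with hl2
    have n1 : ‖g.1 - t • l1‖ ≤ (1 / 16) * (t * m) := by
      refine le_trans ?_ (happ'.trans (le_of_eq (by norm_num)))
      exact norm_fst_le (g - t • (l1, l2))
    have n2 : ‖g.2 - t • l2‖ ≤ (1 / 16) * (t * m) := by
      refine le_trans ?_ (happ'.trans (le_of_eq (by norm_num)))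
      exact norm_snd_le (g - t • (l1, l2))
    have i1 := abs_real_inner_le_norm (g.1 - t • l1) α
    have i2 := abs_real_inner_le_norm (g.2 - t • l2) β
    rw [inner_sub_left, real_inner_smul_left] at i1 i2
    have hm0 : 0 ≤ m := norm_nonneg _
    have ht0 := ht.1
    have j1 : ‖g.1 - t • l1‖ * ‖α‖ ≤ (1 / 16) * (t * m) * m := by gcongr
    have j2 : ‖g.2 - t • l2‖ * ‖β‖ ≤ (1 / 16) * (t * m) * m := by gcongr
    have hfin : t * ((1 / 8) * (‖α‖ ^ 2 + ‖β‖ ^ 2)) ≤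
        FF p a' (S a'') (R a) - FF p a (S a) (R a) := by
      rw [← hmvt]
      have u1 := (abs_le.1 (i1.trans j1)).1
      have u2 := (abs_le.1 (i2.trans j2)).1
      have u3 := mul_le_mul_of_nonneg_left hq ht0.le
      have u4 := mul_le_mul_of_nonneg_left hm3 ht0.le
      linarith
    have hnn : 0 ≤ t * ((1 / 8) * (‖α‖ ^ 2 + ‖β‖ ^ 2)) := by positivity
    refine ⟨by linarith, fun hle => ?_⟩
    have h0 : (1 / 8) * (‖α‖ ^ 2 + ‖β‖ ^ 2) ≤ 0 := by
      by_contra hcon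
      push Not at hcon
      have := mul_pos ht0 hcon
      linarith
    have : ‖α‖ = 0 := by nlinarith [sq_nonneg ‖α‖, sq_nonneg ‖β‖, norm_nonneg α]
    exact sub_eq_zero.1 (norm_eq_zero.1 this)

end Vale.Agent.P121
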