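import Mathlib

open MeasureTheory
open scoped ENNReal

namespace Vale.Agent.P121

/-- Euclidean three-space. -/
abbrev R3 := EuclideanSpace ℝ (Fin 3)

/-- The three-particle Coulomb cost, equal to `∞` when two coordinates coincide. -/
noncomputable def coulomb (x y z : R3) : ℝ≥0∞ :=
  (edist x y)⁻¹ + (edist x z)⁻¹ + (edist y z)⁻¹

/-- `π` is a probability measure on triples whose three marginals all equal `μ`. -/
def IsCoupling (μ : Measure R3) (π : Measure (R3 × R3 × R3)) : Prop :=
  IsProbabilityMeasure π ∧ π.map (fun x => x.1) = μ ∧ π.map (fun x => x.2.1) = μ ∧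
    π.map (fun x => x.2.2) = μ

/-- The Kantorovich value. -/
noncomputable def kantorovich (μ : Measure R3) : ℝ≥0∞ :=
  ⨅ (π : Measure (R3 × R3 × R3)) (_ : IsCoupling μ π), ∫⁻ x, coulomb x.1 x.2.1 x.2.2 ∂π

end Vale.Agent.P121
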