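import Vale.Agent.P121.Branch
import Vale.Agent.P121.Defs

open Filter Topology Metric MeasureTheory
open scoped RealInnerProductSpace NNReal ENNReal

namespace Vale.Agent.P121

noncomputable def pp (i : Fin 3) : R3 := EuclideanSpace.single i 1

lemma norm_pp (i : Fin 3) : ‖pp i‖ = 1 := by simp [pp]

lemma inner_pp {i j : Fin 3} (h : i ≠ j) : ⟪pp i, pp j⟫ = 0 := by
  simp [pp, EuclideanSpace.inner_single_left, h]

lemma norm_pp_sub_sq {i j : Fin 3} (h : i ≠ j) : ‖pp i - pp j‖ ^ 2 = 2 := by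
  rw [norm_sub_sq_real, inner_pp h, norm_pp, norm_pp]; norm_num

lemma norm_pp_add_sq {i j : Fin 3} (h : i ≠ j) : ‖pp i + pp j‖ ^ 2 = 2 := by
  rw [norm_add_sq_real, inner_pp h, norm_pp, norm_pp]; norm_num

lemma norm_pp_add_self (i : Fin 3) : ‖pp i + pp i‖ = 2 := by
  rw [← two_smul ℝ, norm_smul, norm_pp]; simp

/-- All the data of the construction. -/
structure Data where
  r : ℝ
  S : Fin 3 → R3 → R3
  R : Fin 3 → R3 → R3
  u : R3 → ℝ
  L : ℝ
  r_pos : 0 < r
  r_le : r ≤ 1 / 100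
  L_nonneg : 0 ≤ L
  mS : ∀ i, Measurable (S i)
  mR : ∀ i, Measurable (R i)
  mu : Measurable u
  memS : ∀ i, ∀ a ∈ ball (0 : R3) r, ‖S i a - pp i‖ < 1 / 100
  memR : ∀ i, ∀ a ∈ ball (0 : R3) r, ‖R i a + pp i‖ < 1 / 100
  antiS : ∀ i, ∀ a ∈ ball (0 : R3) r, ∀ a' ∈ ball (0 : R3) r, ‖a - a'‖ ≤ L * ‖S i a - S i a'‖
  antiR : ∀ i, ∀ a ∈ ball (0 : R3) r, ∀ a' ∈ ball (0 : R3) r, ‖a - a'‖ ≤ L * ‖R i a - R i a'‖
  minim : ∀ i, ∀ a ∈ ball (0 : R3) r, ∀ a' ∈ ball (0 : R3) r, ∀ a'' ∈ ball (0 : R3) r,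
    FF (pp i) a (S i a) (R i a) ≤ FF (pp i) a' (S i a'') (R i a) ∧
      (FF (pp i) a' (S i a'') (R i a) ≤ FF (pp i) a (S i a) (R i a) → a' = a)
  uA : ∀ a ∈ ball (0 : R3) r, u a = 2 - 2 * ‖a‖ ^ 2
  uS : ∀ i, ∀ a ∈ ball (0 : R3) r, u (S i a) = 1 / 4 + uB (pp i) (S i a)
  uR : ∀ i, ∀ a ∈ ball (0 : R3) r, u (R i a) = FF (pp i) a (S i a) (R i a) - 9 / 4

lemma far_of_near {x q q' : R3} (h : ‖x - q‖ < 1 / 100) (hq : 1 ≤ ‖q - q'‖) :
    ¬ ‖x - q'‖ < 1 / 2 := by
  have := norm_sub_le (x - q') (x - q)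
  have e : x - q' - (x - q) = q - q' := by abel
  rw [e] at this
  intro h'
  linarith

lemma one_le_of_sq {t : ℝ} (h0 : 0 ≤ t) (h : t ^ 2 = 2) : 1 ≤ t := by nlinarith

lemma exists_data : Nonempty Data := by
  classical
  choose r hr S R L hL hr1 hSc hRc hmem hanti hmin using
    fun i => branch (pp i) (norm_pp i) (1 / 100) (by norm_num)
  set r₀ := min (r 0) (min (r 1) (r 2)) with hr₀
  have hr₀pos : 0 < r₀ := lt_min (hr 0) (lt_min (hr 1) (hr 2))
  have hle : ∀ i, r₀ ≤ r i := by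
    intro i
    fin_cases i
    · exact min_le_left _ _
    · exact (min_le_right _ _).trans (min_le_left _ _)
    · exact (min_le_right _ _).trans (min_le_right _ _)
  clear_value r₀
  have hsub : ∀ i, ball (0 : R3) r₀ ⊆ ball 0 (r i) := fun i => ball_subset_ball (hle i)
  set B : Set R3 := ball 0 r₀ with hB
  have hBm : MeasurableSet B := measurableSet_ball
  set S' : Fin 3 → R3 → R3 := fun i => B.piecewise (S i) 0 with hS'
  set R' : Fin 3 → R3 → R3 := fun i => B.piecewise (R i) 0 with hR'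
  have eS : ∀ i, ∀ a ∈ B, S' i a = S i a := fun i a ha => Set.piecewise_eq_of_mem _ _ _ ha
  have eR : ∀ i, ∀ a ∈ B, R' i a = R i a := fun i a ha => Set.piecewise_eq_of_mem _ _ _ ha
  have mS : ∀ i, Measurable (S' i) := fun i =>
    ((hSc i).mono (hsub i)).measurable_piecewise continuousOn_const hBm
  have mR : ∀ i, Measurable (R' i) := fun i =>
    ((hRc i).mono (hsub i)).measurable_piecewise continuousOn_const hBm
  have hW : ∀ i, ∃ W : R3 → ℝ, Measurable W ∧
      ∀ a ∈ B, W (R i a) = FF (pp i) a (S i a) (R i a) - 9 / 4 := by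
    intro i
    have hinj : Set.InjOn (R i) B := by
      intro a ha a' ha' h
      have := (hanti i a (hsub i ha) a' (hsub i ha')).2
      rw [h, sub_self, norm_zero, mul_zero] at this
      exact sub_eq_zero.1 (norm_le_zero_iff.1 this)
    have hemb := ((hRc i).mono (hsub i)).measurableEmbedding hBm hinj
    have hg : Measurable fun a : B => FF (pp i) a (S' i a) (R' i a) - 9 / 4 := by
      have h1 : Measurable fun a : R3 => FF (pp i) a (S' i a) (R' i a) - 9 / 4 := by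
        have := mS i
        have := mR i
        unfold FF cR uB
        fun_prop
      exact h1.comp measurable_subtype_coe
    obtain ⟨W, hWm, hWe⟩ := hemb.exists_measurable_extend hg (fun _ => ⟨0⟩)
    refine ⟨W, hWm, fun a ha => ?_⟩
    have := congrFun hWe ⟨a, ha⟩
    simp only [Function.comp, Set.domRestrict_apply, eS i a ha, eR i a ha] at this
    exact this
  choose W hWm hWe using hW
  set u : R3 → ℝ := fun x => (if ‖x - 0‖ < 1 / 2 then 2 - 2 * ‖x‖ ^ 2 else 0) +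
    ∑ i, ((if ‖x - pp i‖ < 1 / 2 then 1 / 4 + uB (pp i) x else 0) +
      (if ‖x - -pp i‖ < 1 / 2 then W i x else 0)) with hu
  have hmemS : ∀ i, ∀ a ∈ B, ‖S i a - pp i‖ < 1 / 100 := fun i a ha => by
    have := (hmem i a (hsub i ha)).1
    rwa [mem_ball, dist_eq_norm] at this
  have hmemR : ∀ i, ∀ a ∈ B, ‖R i a - -pp i‖ < 1 / 100 := fun i a ha => by
    have := (hmem i a (hsub i ha)).2
    rwa [mem_ball, dist_eq_norm] at this
  have d1 : ∀ i j, 1 ≤ ‖pp i - -pp j‖ := by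
    intro i j
    rw [sub_neg_eq_add]
    by_cases h : i = j
    · subst h; rw [norm_pp_add_self]; norm_num
    · exact one_le_of_sq (norm_nonneg _) (norm_pp_add_sq h)
  have d2 : ∀ i j, 1 ≤ ‖-pp i - pp j‖ := by
    intro i j
    rw [norm_sub_rev]; exact d1 j i
  have d3 : ∀ i j, i ≠ j → 1 ≤ ‖pp i - pp j‖ := fun i j h =>
    one_le_of_sq (norm_nonneg _) (norm_pp_sub_sq h)
  have d4 : ∀ i j, i ≠ j → 1 ≤ ‖-pp i - -pp j‖ := fun i j h => by
    rw [neg_sub_neg]; exact d3 j i h.symm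
  refine ⟨⟨r₀, S', R', u, L 0 + L 1 + L 2, hr₀pos, (hle 0).trans (hr1 0), ?_, mS, mR, ?_, ?_, ?_,
    ?_, ?_, ?_, ?_, ?_, ?_⟩⟩
  · have := hL 0; have := hL 1; have := hL 2; positivity
  · have hm : ∀ q : R3, MeasurableSet {x : R3 | ‖x - q‖ < 1 / 2} := fun q =>
      measurableSet_lt (by fun_prop) measurable_const
    apply Measurable.add
    · exact Measurable.ite (hm _) (by fun_prop) measurable_const
    · refine Finset.measurable_sum _ fun i _ => Measurable.add ?_ ?_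
      · exact Measurable.ite (hm _) (by unfold uB; fun_prop) measurable_const
      · exact Measurable.ite (hm _) (hWm i) measurable_const
  · intro i a ha
    rw [eS i a ha]; exact hmemS i a ha
  · intro i a ha
    rw [eR i a ha, ← sub_neg_eq_add]; exact hmemR i a ha
  · intro i a ha a' ha'
    rw [eS i a ha, eS i a' ha']
    refine (hanti i a (hsub i ha) a' (hsub i ha')).1.trans ?_
    gcongr
    have := hL 0; have := hL 1; have := hL 2
    fin_cases i <;> simp <;> linarith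
  · intro i a ha a' ha'
    rw [eR i a ha, eR i a' ha']
    refine (hanti i a (hsub i ha) a' (hsub i ha')).2.trans ?_
    gcongr
    have := hL 0; have := hL 1; have := hL 2
    fin_cases i <;> simp <;> linarith
  · intro i a ha a' ha' a'' ha''
    rw [eS i a ha, eR i a ha, eS i a'' ha'']
    exact hmin i a (hsub i ha) a' (hsub i ha') a'' (hsub i ha'')
  · intro a ha
    have h0 : ‖a - 0‖ < 1 / 100 := by
      have := mem_ball_zero_iff.1 ha
      have := (hle 0).trans (hr1 0)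
      rw [sub_zero]; linarith
    simp only [hu]
    rw [if_pos (by linarith), Finset.sum_eq_zero, add_zero]
    intro j _
    rw [if_neg (far_of_near h0 (by simp [norm_pp])), if_neg (far_of_near h0 (by simp [norm_pp])),
      add_zero]
  · intro i a ha
    rw [eS i a ha]
    have h0 := hmemS i a ha
    simp only [hu]
    rw [if_neg (far_of_near h0 (by simp [norm_pp])), zero_add, Finset.sum_eq_single i,
      if_pos (by linarith), if_neg (far_of_near h0 (d1 i i)), add_zero]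
    · intro j _ hj
      rw [if_neg (far_of_near h0 (d3 i j hj.symm)), if_neg (far_of_near h0 (d1 i j)), add_zero]
    · simp
  · intro i a ha
    rw [eS i a ha, eR i a ha]
    have h0 := hmemR i a ha
    simp only [hu]
    rw [if_neg (far_of_near h0 (by simp [norm_pp])), zero_add, Finset.sum_eq_single i,
      if_neg (far_of_near h0 (d2 i i)), if_pos (by linarith), zero_add, hWe i a ha]
    · intro j _ hj
      rw [if_neg (far_of_near h0 (d2 i j)), if_neg (far_of_near h0 (d4 i j hj.symm)), add_zero]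
    · simp

lemma ofReal_inv_le {x y : R3} {d : ℝ} (hd : 0 < d) (h : ‖x - y‖ ≤ d) :
    ENNReal.ofReal d⁻¹ ≤ (edist x y)⁻¹ := by
  rw [ENNReal.ofReal_inv_of_pos hd, ENNReal.inv_le_inv, edist_dist, dist_eq_norm]
  exact ENNReal.ofReal_le_ofReal h

lemma crude {x y z : R3} {d₁ d₂ d₃ U : ℝ} (h₁ : 0 < d₁) (h₂ : 0 < d₂) (h₃ : 0 < d₃)
    (k₁ : ‖x - y‖ ≤ d₁) (k₂ : ‖x - z‖ ≤ d₂) (k₃ : ‖y - z‖ ≤ d₃) (hU : U < d₁⁻¹ + d₂⁻¹ + d₃⁻¹) :
    ENNReal.ofReal U < coulomb x y z := by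
  calc ENNReal.ofReal U < ENNReal.ofReal (d₁⁻¹ + d₂⁻¹ + d₃⁻¹) :=
        (ENNReal.ofReal_lt_ofReal_iff (by positivity)).2 hU
    _ = ENNReal.ofReal d₁⁻¹ + ENNReal.ofReal d₂⁻¹ + ENNReal.ofReal d₃⁻¹ := by
        rw [ENNReal.ofReal_add (by positivity) (by positivity),
          ENNReal.ofReal_add (by positivity) (by positivity)]
    _ ≤ coulomb x y z :=
        add_le_add (add_le_add (ofReal_inv_le h₁ k₁) (ofReal_inv_le h₂ k₂)) (ofReal_inv_le h₃ k₃)

lemma coulomb_eq {x y z : R3} (h₁ : 0 < ‖x - y‖) (h₂ : 0 < ‖x - z‖) (h₃ : 0 < ‖y - z‖) :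
    coulomb x y z = ENNReal.ofReal (cR x y z) := by
  unfold coulomb cR
  rw [ENNReal.ofReal_add (by positivity) (by positivity),
    ENNReal.ofReal_add (by positivity) (by positivity), ENNReal.ofReal_inv_of_pos h₁,
    ENNReal.ofReal_inv_of_pos h₂, ENNReal.ofReal_inv_of_pos h₃]
  simp only [edist_dist, dist_eq_norm]

lemma coulomb_swap23 (x y z : R3) : coulomb x y z = coulomb x z y := by
  unfold coulomb; rw [edist_comm y z]; ring

lemma coulomb_swap12 (x y z : R3) : coulomb x y z = coulomb y x z := by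
  unfold coulomb; rw [edist_comm x y]; ring

lemma coulomb_rot (x y z : R3) : coulomb x y z = coulomb y z x := by
  unfold coulomb; rw [edist_comm x y, edist_comm x z]; ring

lemma abs_uB_le {p b : R3} (hp : ‖p‖ = 1) (h : ‖b - p‖ < 1 / 100) : |uB p b| ≤ 13 / 1000 := by
  have h1 := abs_real_inner_le_norm p (b - p)
  rw [hp, one_mul] at h1
  have h2 := abs_le.1 (h1.trans h.le)
  have h3 := norm_nonneg (b - p)
  unfold uB
  rw [abs_le]
  constructor <;> nlinarith

namespace Data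

variable (D : Data)

/-- the central ball -/
def B : Set R3 := ball 0 D.r

/-- the outer patches -/
def Sh : Set R3 := {y | ∃ i, ∃ a ∈ D.B, y = D.S i a ∨ y = D.R i a}

lemma norm_B {a : R3} (ha : a ∈ D.B) : ‖a‖ < 1 / 100 :=
  (mem_ball_zero_iff.1 ha).trans_le D.r_le

lemma dist_aS {a a' : R3} (ha : a ∈ D.B) (ha' : a' ∈ D.B) (i : Fin 3) :
    98 / 100 ≤ ‖a - D.S i a'‖ ∧ ‖a - D.S i a'‖ ≤ 102 / 100 := by
  have h1 := D.norm_B ha
  have h2 := D.memS i a' ha'
  have h3 := norm_pp i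
  have h4 := norm_sub_le a (D.S i a' - pp i)
  have h5 := abs_norm_sub_norm_le (a - D.S i a') (-pp i)
  have e : a - D.S i a' - -pp i = a - (D.S i a' - pp i) := by abel
  rw [e, norm_neg, abs_le] at h5
  constructor <;> linarith

lemma dist_aR {a a' : R3} (ha : a ∈ D.B) (ha' : a' ∈ D.B) (i : Fin 3) :
    98 / 100 ≤ ‖a - D.R i a'‖ ∧ ‖a - D.R i a'‖ ≤ 102 / 100 := by
  have h1 := D.norm_B ha
  have h2 := D.memR i a' ha'
  have h3 := norm_pp i
  have h4 := norm_sub_le a (D.R i a' + pp i)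
  have h5 := abs_norm_sub_norm_le (a - D.R i a') (pp i)
  have e : a - D.R i a' - pp i = a - (D.R i a' + pp i) := by abel
  rw [e, abs_le] at h5
  constructor <;> linarith

lemma dist_SR {a a' : R3} (ha : a ∈ D.B) (ha' : a' ∈ D.B) (i : Fin 3) :
    198 / 100 ≤ ‖D.S i a - D.R i a'‖ ∧ ‖D.S i a - D.R i a'‖ ≤ 202 / 100 := by
  have h1 := D.memS i a ha
  have h2 := D.memR i a' ha'
  have h3 := norm_pp_add_self i
  have h4 := norm_sub_le (D.S i a - pp i) (D.R i a' + pp i)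
  have h5 := abs_norm_sub_norm_le (D.S i a - D.R i a') (pp i + pp i)
  have e : D.S i a - D.R i a' - (pp i + pp i) = (D.S i a - pp i) - (D.R i a' + pp i) := by abel
  rw [e, abs_le] at h5
  constructor <;> linarith

lemma u_B {a : R3} (ha : a ∈ D.B) : 0 ≤ D.u a ∧ D.u a ≤ 2 := by
  rw [D.uA a ha]
  have := D.norm_B ha
  have := norm_nonneg a
  constructor <;> nlinarith

lemma u_Sh {y : R3} (hy : y ∈ D.Sh) : 0 ≤ D.u y ∧ D.u y ≤ 31 / 100 := by
  obtain ⟨i, a, ha, rfl | rfl⟩ := hy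
  · rw [D.uS i a ha]
    have := abs_le.1 (abs_uB_le (norm_pp i) (D.memS i a ha))
    constructor <;> linarith
  · rw [D.uR i a ha]
    have h1 := abs_le.1 (abs_uB_le (norm_pp i) (D.memS i a ha))
    have h2 := D.dist_aS ha ha i
    have h3 := D.dist_aR ha ha i
    have h4 := D.dist_SR ha ha i
    have h5 := D.norm_B ha
    have h6 := norm_nonneg a
    have k1 : ‖a - D.S i a‖⁻¹ ≤ (98 / 100 : ℝ)⁻¹ := inv_anti₀ (by norm_num) h2.1
    have k2 : ‖a - D.R i a‖⁻¹ ≤ (98 / 100 : ℝ)⁻¹ := inv_anti₀ (by norm_num) h3.1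
    have k3 : ‖D.S i a - D.R i a‖⁻¹ ≤ (198 / 100 : ℝ)⁻¹ := inv_anti₀ (by norm_num) h4.1
    have l1 : (102 / 100 : ℝ)⁻¹ ≤ ‖a - D.S i a‖⁻¹ := inv_anti₀ (by linarith) h2.2
    have l2 : (102 / 100 : ℝ)⁻¹ ≤ ‖a - D.R i a‖⁻¹ := inv_anti₀ (by linarith) h3.2
    have l3 : (202 / 100 : ℝ)⁻¹ ≤ ‖D.S i a - D.R i a‖⁻¹ := inv_anti₀ (by linarith) h4.2
    unfold FF cR
    constructor <;> nlinarith

lemma norm_Sh {y : R3} (hy : y ∈ D.Sh) : ‖y‖ ≤ 101 / 100 := by
  obtain ⟨i, a, ha, rfl | rfl⟩ := hy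
  · have h1 := D.memS i a ha
    have h2 := norm_add_le (D.S i a - pp i) (pp i)
    rw [sub_add_cancel, norm_pp] at h2
    linarith
  · have h1 := D.memR i a ha
    have h2 := norm_sub_le (D.R i a + pp i) (pp i)
    rw [add_sub_cancel_right, norm_pp] at h2
    linarith

lemma exact_case {x a a'' : R3} (hx : x ∈ D.B) (ha : a ∈ D.B) (ha'' : a'' ∈ D.B) (i : Fin 3) :
    ENNReal.ofReal (D.u x + D.u (D.S i a'') + D.u (D.R i a)) ≤ coulomb x (D.S i a'') (D.R i a) ∧
    (coulomb x (D.S i a'') (D.R i a) ≤ ENNReal.ofReal (D.u x + D.u (D.S i a'') + D.u (D.R i a)) →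
      x = a) := by
  have h2 := D.dist_aS hx ha'' i
  have h3 := D.dist_aR hx ha i
  have h4 := D.dist_SR ha'' ha i
  rw [coulomb_eq (by linarith) (by linarith) (by linarith)]
  obtain ⟨m1, m2⟩ := D.minim i a ha x hx a'' ha''
  have e : cR x (D.S i a'') (D.R i a) - (D.u x + D.u (D.S i a'') + D.u (D.R i a)) =
      FF (pp i) x (D.S i a'') (D.R i a) - FF (pp i) a (D.S i a) (D.R i a) := by
    rw [D.uA x hx, D.uS i a'' ha'', D.uR i a ha]
    unfold FF
    ring
  refine ⟨ENNReal.ofReal_le_ofReal (by linarith), fun h => m2 ?_⟩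
  have h5 := (D.u_B hx).1
  have h6 := (D.u_Sh ⟨i, a'', ha'', Or.inl rfl⟩).1
  have h7 := (D.u_Sh ⟨i, a, ha, Or.inr rfl⟩).1
  rw [ENNReal.ofReal_le_ofReal_iff (by positivity)] at h
  linarith

lemma exact_eq {a : R3} (ha : a ∈ D.B) (i : Fin 3) :
    coulomb a (D.S i a) (D.R i a) = ENNReal.ofReal (D.u a + D.u (D.S i a) + D.u (D.R i a)) := by
  have h2 := D.dist_aS ha ha i
  have h3 := D.dist_aR ha ha i
  have h4 := D.dist_SR ha ha i
  rw [coulomb_eq (by linarith) (by linarith) (by linarith), D.uA a ha, D.uS i a ha, D.uR i a ha]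
  unfold FF
  congr 1
  ring

lemma near_le {y z q q' : R3} (h1 : ‖y - q‖ < 1 / 100) (h2 : ‖z - q'‖ < 1 / 100)
    (h3 : ‖q - q'‖ ^ 2 ≤ 2) : ‖y - z‖ ≤ 144 / 100 := by
  have h4 : ‖q - q'‖ ≤ 142 / 100 := by nlinarith [norm_nonneg (q - q')]
  have e : y - z = (y - q) - (z - q') + (q - q') := by abel
  rw [e]
  have := norm_add_le ((y - q) - (z - q')) (q - q')
  have := norm_sub_le (y - q) (z - q')
  linarith

lemma shell_cases {y z : R3} (hy : y ∈ D.Sh) (hz : z ∈ D.Sh) : ‖y - z‖ ≤ 144 / 100 ∨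
    (∃ i, ∃ a ∈ D.B, ∃ a' ∈ D.B, (y = D.S i a' ∧ z = D.R i a) ∨ (z = D.S i a' ∧ y = D.R i a)) := by
  obtain ⟨i, a, ha, rfl | rfl⟩ := hy <;> obtain ⟨j, a', ha', rfl | rfl⟩ := hz
  · left
    refine near_le (D.memS i a ha) (D.memS j a' ha') ?_
    by_cases h : i = j
    · subst h; simp
    · exact (norm_pp_sub_sq h).le
  · by_cases h : i = j
    · subst h
      exact Or.inr ⟨i, a', ha', a, ha, Or.inl ⟨rfl, rfl⟩⟩
    · left
      refine near_le (q' := -pp j) (D.memS i a ha) (by simpa using D.memR j a' ha') ?_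
      rw [sub_neg_eq_add]; exact (norm_pp_add_sq h).le
  · by_cases h : i = j
    · subst h
      exact Or.inr ⟨i, a, ha, a', ha', Or.inr ⟨rfl, rfl⟩⟩
    · left
      refine near_le (q := -pp i) (by simpa using D.memR i a ha) (D.memS j a' ha') ?_
      rw [norm_sub_rev, sub_neg_eq_add]; exact (norm_pp_add_sq (Ne.symm h)).le
  · left
    refine near_le (q := -pp i) (q' := -pp j) (by simpa using D.memR i a ha)
      (by simpa using D.memR j a' ha') ?_
    rw [neg_sub_neg]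
    by_cases h : i = j
    · subst h; simp
    · exact (norm_pp_sub_sq (Ne.symm h)).le

lemma u_le {y : R3} (hy : y ∈ D.B ∪ D.Sh) : 0 ≤ D.u y ∧ D.u y ≤ 2 := by
  rcases hy with h | h
  · exact D.u_B h
  · have := D.u_Sh h
    constructor <;> linarith

lemma norm_le {y : R3} (hy : y ∈ D.B ∪ D.Sh) : ‖y‖ ≤ 101 / 100 := by
  rcases hy with h | h
  · have := D.norm_B h; linarith
  · exact D.norm_Sh h

lemma core1 {x y z : R3} (hx : x ∈ D.B) (hy : y ∈ D.B ∪ D.Sh) (hz : z ∈ D.B ∪ D.Sh) :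
    ENNReal.ofReal (D.u x + D.u y + D.u z) ≤ coulomb x y z ∧
    (coulomb x y z ≤ ENNReal.ofReal (D.u x + D.u y + D.u z) → ∃ i, y = D.R i x ∨ z = D.R i x) := by
  have strict : ENNReal.ofReal (D.u x + D.u y + D.u z) < coulomb x y z →
      ENNReal.ofReal (D.u x + D.u y + D.u z) ≤ coulomb x y z ∧
      (coulomb x y z ≤ ENNReal.ofReal (D.u x + D.u y + D.u z) →
        ∃ i, y = D.R i x ∨ z = D.R i x) := fun h => ⟨h.le, fun h' => absurd h (not_lt.2 h')⟩
  have n1 := D.norm_B hx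
  have n2 := D.norm_le hy
  have n3 := D.norm_le hz
  have u1 := D.u_B hx
  have u2 := D.u_le hy
  have u3 := D.u_le hz
  have t1 := norm_sub_le x y
  have t2 := norm_sub_le x z
  have t3 := norm_sub_le y z
  rcases hy with hy | hy
  · have := D.norm_B hy
    exact strict (crude (d₁ := 1 / 50) (d₂ := 3) (d₃ := 3) (by norm_num) (by norm_num)
      (by norm_num) (by linarith) (by linarith) (by linarith) (by norm_num; linarith))
  rcases hz with hz | hz
  · have := D.norm_B hz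
    exact strict (crude (d₁ := 3) (d₂ := 1 / 50) (d₃ := 3) (by norm_num) (by norm_num)
      (by norm_num) (by linarith) (by linarith) (by linarith) (by norm_num; linarith))
  rcases D.shell_cases hy hz with h | ⟨i, a, ha, a', ha', ⟨rfl, rfl⟩ | ⟨rfl, rfl⟩⟩
  · have v2 := D.u_Sh hy
    have v3 := D.u_Sh hz
    exact strict (crude (d₁ := 102 / 100) (d₂ := 102 / 100) (d₃ := 144 / 100) (by norm_num)
      (by norm_num) (by norm_num) (by linarith) (by linarith) h (by norm_num; linarith))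
  · obtain ⟨h1, h2⟩ := D.exact_case hx ha ha' i
    exact ⟨h1, fun h => ⟨i, Or.inr (by rw [h2 h])⟩⟩
  · obtain ⟨h1, h2⟩ := D.exact_case hx ha ha' i
    rw [coulomb_swap23, add_right_comm]
    exact ⟨h1, fun h => ⟨i, Or.inl (by rw [h2 h])⟩⟩

lemma ineq {x y z : R3} (hx : x ∈ D.B ∪ D.Sh) (hy : y ∈ D.B ∪ D.Sh) (hz : z ∈ D.B ∪ D.Sh) :
    ENNReal.ofReal (D.u x + D.u y + D.u z) ≤ coulomb x y z := by
  rcases hx with hx | hx
  · exact (D.core1 hx hy hz).1
  rcases hy with hy | hy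
  · rw [coulomb_swap12, add_comm (D.u x)]
    exact (D.core1 hy (Or.inr hx) hz).1
  rcases hz with hz | hz
  · rw [coulomb_rot, coulomb_rot]
    have e : D.u x + D.u y + D.u z = D.u z + D.u x + D.u y := by ring
    rw [e]
    exact (D.core1 hz (Or.inr hx) (Or.inr hy)).1
  have n1 := D.norm_Sh hx
  have n2 := D.norm_Sh hy
  have n3 := D.norm_Sh hz
  have u1 := D.u_Sh hx
  have u2 := D.u_Sh hy
  have u3 := D.u_Sh hz
  have t1 := norm_sub_le x y
  have t2 := norm_sub_le x z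
  have t3 := norm_sub_le y z
  exact (crude (d₁ := 3) (d₂ := 3) (d₃ := 3) (by norm_num) (by norm_num)
      (by norm_num) (by linarith) (by linarith) (by linarith) (by norm_num; linarith)).le

end Data

end Vale.Agent.P121
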