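import Vale.Agent.P121.Geom

open Filter Topology Metric MeasureTheory ProbabilityTheory
open scoped RealInnerProductSpace NNReal ENNReal

namespace Vale.Agent.P121

lemma null_preimage {f : R3 → R3} {B : Set R3} {L : ℝ} (hL : 0 ≤ L)
    (h : ∀ a ∈ B, ∀ a' ∈ B, ‖a - a'‖ ≤ L * ‖f a - f a'‖) {N : Set R3} (hN : volume N = 0) :
    volume (B ∩ f ⁻¹' N) = 0 := by
  have hA : AntilipschitzWith ⟨L, hL⟩ (fun a : B => f a) := by
    refine AntilipschitzWith.of_le_mul_dist fun a a' => ?_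
    rw [Subtype.dist_eq, dist_eq_norm, dist_eq_norm]
    exact h a a.2 a' a'.2
  have h1 : (μH[(Module.finrank ℝ R3 : ℝ)] : Measure R3) N = 0 :=
    Measure.absolutelyContinuous_isAddHaarMeasure _ volume hN
  have h2 := hA.hausdorffMeasure_preimage_le (d := (Module.finrank ℝ R3 : ℝ)) (by positivity) N
  rw [h1, mul_zero, nonpos_iff_eq_zero] at h2
  have h3 := (isometry_subtype_coe (s := B)).hausdorffMeasure_image
    (d := (Module.finrank ℝ R3 : ℝ)) (Or.inl (by positivity)) ((fun a : B => f a) ⁻¹' N)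
  rw [h2] at h3
  have e : Subtype.val '' ((fun a : B => f a) ⁻¹' N) = B ∩ f ⁻¹' N := by
    ext x; simp [and_comm]
  rw [e] at h3
  exact Measure.absolutelyContinuous_isAddHaarMeasure volume _ h3

lemma measurable_coulomb : Measurable fun x : R3 × R3 × R3 => coulomb x.1 x.2.1 x.2.2 := by
  unfold coulomb
  fun_prop

namespace Data

variable (D : Data)

noncomputable def lam : Measure R3 := volume[|D.B]

noncomputable def mu0 : Measure R3 :=
  (9 : ℝ≥0∞)⁻¹ • ∑ i, (D.lam + D.lam.map (D.S i) + D.lam.map (D.R i))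

noncomputable def pi0 : Measure (R3 × R3 × R3) :=
  (9 : ℝ≥0∞)⁻¹ • ∑ i, (D.lam.map (fun a => (a, D.S i a, D.R i a)) +
    D.lam.map (fun a => (D.S i a, D.R i a, a)) + D.lam.map (fun a => (D.R i a, a, D.S i a)))

lemma mB : MeasurableSet D.B := measurableSet_ball

lemma lam_prob : IsProbabilityMeasure D.lam :=
  cond_isProbabilityMeasure_of_finite (measure_ball_pos volume _ D.r_pos).ne' measure_ball_lt_top.ne

lemma lam_congr {s t : Set R3} (h : D.B ∩ s = D.B ∩ t) : D.lam s = D.lam t := by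
  unfold lam
  rw [cond_apply D.mB, cond_apply D.mB, h]

lemma lam_zero {s : Set R3} (h : ∀ x ∈ D.B, x ∉ s) : D.lam s = 0 := by
  rw [D.lam_congr (t := ∅), measure_empty]
  ext x
  simp only [Set.mem_inter_iff, Set.mem_empty_iff_false, and_false, iff_false, not_and]
  exact h x

lemma lam_ae : ∀ᵐ x ∂D.lam, x ∈ D.B := ae_cond_mem D.mB

lemma mu0_apply {s : Set R3} (hs : MeasurableSet s) : D.mu0 s =
    (9 : ℝ≥0∞)⁻¹ * ∑ i, (D.lam s + D.lam (D.S i ⁻¹' s) + D.lam (D.R i ⁻¹' s)) := by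
  unfold mu0
  rw [Measure.smul_apply, Measure.finsetSum_apply, smul_eq_mul]
  congr 1
  refine Finset.sum_congr rfl fun i _ => ?_
  rw [Measure.add_apply, Measure.add_apply, Measure.map_apply (D.mS i) hs,
    Measure.map_apply (D.mR i) hs]

lemma mu0_prob : IsProbabilityMeasure D.mu0 := by
  have := D.lam_prob
  constructor
  rw [D.mu0_apply MeasurableSet.univ]
  simp only [Set.preimage_univ, measure_univ, Finset.sum_const, Finset.card_univ,
    Fintype.card_fin, nsmul_eq_mul]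
  norm_num
  exact ENNReal.inv_mul_cancel (by norm_num) (by norm_num)

lemma mu0_ac : D.mu0 ≪ volume := by
  refine Measure.AbsolutelyContinuous.mk fun s hs h0 => ?_
  rw [D.mu0_apply hs, Finset.sum_eq_zero, mul_zero]
  intro i _
  have h1 : D.lam s = 0 := cond_absolutelyContinuous h0
  have h2 : D.lam (D.S i ⁻¹' s) = 0 := by
    unfold lam
    rw [cond_apply D.mB, null_preimage (B := D.B) D.L_nonneg (D.antiS i) h0, mul_zero]
  have h3 : D.lam (D.R i ⁻¹' s) = 0 := by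
    unfold lam
    rw [cond_apply D.mB, null_preimage (B := D.B) D.L_nonneg (D.antiR i) h0, mul_zero]
  rw [h1, h2, h3]; simp

lemma injS (i : Fin 3) : Set.InjOn (D.S i) D.B := by
  intro a ha a' ha' h
  have := D.antiS i a ha a' ha'
  rw [h, sub_self, norm_zero, mul_zero] at this
  exact sub_eq_zero.1 (norm_le_zero_iff.1 this)

lemma injR (i : Fin 3) : Set.InjOn (D.R i) D.B := by
  intro a ha a' ha' h
  have := D.antiR i a ha a' ha'
  rw [h, sub_self, norm_zero, mul_zero] at this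
  exact sub_eq_zero.1 (norm_le_zero_iff.1 this)

lemma mSh : MeasurableSet D.Sh := by
  have e : D.Sh = ⋃ i, (D.S i '' D.B ∪ D.R i '' D.B) := by
    ext y
    simp only [Sh, Set.mem_ofPred_eq, Set.mem_iUnion, Set.mem_union, Set.mem_image]
    constructor
    · rintro ⟨i, a, ha, h | h⟩
      · exact ⟨i, Or.inl ⟨a, ha, h.symm⟩⟩
      · exact ⟨i, Or.inr ⟨a, ha, h.symm⟩⟩
    · rintro ⟨i, ⟨a, ha, h⟩ | ⟨a, ha, h⟩⟩
      · exact ⟨i, a, ha, Or.inl h.symm⟩
      · exact ⟨i, a, ha, Or.inr h.symm⟩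
  rw [e]
  exact MeasurableSet.iUnion fun i =>
    (D.mB.image_of_measurable_injOn (D.mS i) (D.injS i)).union
      (D.mB.image_of_measurable_injOn (D.mR i) (D.injR i))

lemma mu0_ae : ∀ᵐ x ∂D.mu0, x ∈ D.B ∪ D.Sh := by
  have hm := (D.mB.union D.mSh).compl
  change D.mu0 (D.B ∪ D.Sh)ᶜ = 0
  rw [D.mu0_apply hm, Finset.sum_eq_zero, mul_zero]
  intro i _
  rw [D.lam_zero, D.lam_zero, D.lam_zero]
  · simp
  · exact fun x hx h => h (Or.inr ⟨i, x, hx, Or.inr rfl⟩)
  · exact fun x hx h => h (Or.inr ⟨i, x, hx, Or.inl rfl⟩)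
  · exact fun x hx h => h (Or.inl hx)

lemma m1 (i : Fin 3) : Measurable fun a : R3 => (a, D.S i a, D.R i a) :=
  measurable_id.prodMk ((D.mS i).prodMk (D.mR i))

lemma m2 (i : Fin 3) : Measurable fun a : R3 => (D.S i a, D.R i a, a) :=
  (D.mS i).prodMk ((D.mR i).prodMk measurable_id)

lemma m3 (i : Fin 3) : Measurable fun a : R3 => (D.R i a, a, D.S i a) :=
  (D.mR i).prodMk (measurable_id.prodMk (D.mS i))

lemma pi0_map (f : R3 × R3 × R3 → R3) (hf : Measurable f) : D.pi0.map f =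
    (9 : ℝ≥0∞)⁻¹ • ∑ i, (D.lam.map (fun a => f (a, D.S i a, D.R i a)) +
      D.lam.map (fun a => f (D.S i a, D.R i a, a)) +
        D.lam.map (fun a => f (D.R i a, a, D.S i a))) := by
  unfold pi0
  rw [Measure.map_smul, Measure.map_finset_sum' hf.aemeasurable]
  congr 1
  refine Finset.sum_congr rfl fun i _ => ?_
  rw [Measure.map_add _ _ hf, Measure.map_add _ _ hf, Measure.map_map hf (D.m1 i),
    Measure.map_map hf (D.m2 i), Measure.map_map hf (D.m3 i)]
  rfl

lemma pi0_coupling : IsCoupling D.mu0 D.pi0 := by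
  have h1 : D.pi0.map (fun x => x.1) = D.mu0 := by
    rw [D.pi0_map _ measurable_fst]
    simp only [Measure.map_id', mu0]
  refine ⟨?_, h1, ?_, ?_⟩
  · have := D.mu0_prob
    constructor
    have h2 : D.pi0.map (fun x => x.1) Set.univ = 1 := by rw [h1]; exact measure_univ
    rwa [Measure.map_apply measurable_fst MeasurableSet.univ] at h2
  · rw [D.pi0_map _ measurable_snd.fst]
    simp only [Measure.map_id', mu0]
    congr 1
    refine Finset.sum_congr rfl fun i _ => ?_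
    abel
  · rw [D.pi0_map _ measurable_snd.snd]
    simp only [Measure.map_id', mu0]
    congr 1
    refine Finset.sum_congr rfl fun i _ => ?_
    abel

/-- the dual potential -/
noncomputable def uu (x : R3) : ℝ≥0∞ := ENNReal.ofReal (D.u x)

lemma muu : Measurable D.uu := D.mu.ennreal_ofReal

lemma uu_add {x y z : R3} (hx : x ∈ D.B ∪ D.Sh) (hy : y ∈ D.B ∪ D.Sh) (hz : z ∈ D.B ∪ D.Sh) :
    D.uu x + D.uu y + D.uu z = ENNReal.ofReal (D.u x + D.u y + D.u z) := by
  have h1 := (D.u_le hx).1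
  have h2 := (D.u_le hy).1
  have h3 := (D.u_le hz).1
  rw [ENNReal.ofReal_add (by positivity) h3, ENNReal.ofReal_add h1 h2]
  rfl

lemma lintegral_three {Ω : Type*} [MeasurableSpace Ω] (ν : Measure Ω) {f g h : Ω → R3}
    (hf : Measurable f) (hg : Measurable g) (hh : Measurable h) (ef : ν.map f = D.mu0)
    (eg : ν.map g = D.mu0) (eh : ν.map h = D.mu0) :
    ∫⁻ x, (D.uu (f x) + D.uu (g x) + D.uu (h x)) ∂ν = 3 * ∫⁻ x, D.uu x ∂D.mu0 := by
  have mh : Measurable fun x => D.uu (h x) := D.muu.comp hh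
  have mg : Measurable fun x => D.uu (g x) := D.muu.comp hg
  rw [lintegral_add_right _ mh, lintegral_add_right _ mg,
    ← lintegral_map D.muu hf, ← lintegral_map D.muu hg, ← lintegral_map D.muu hh, ef, eg, eh]
  ring

lemma V_lt_top : 3 * ∫⁻ x, D.uu x ∂D.mu0 < ∞ := by
  have := D.mu0_prob
  refine ENNReal.mul_lt_top (by norm_num) ?_
  calc ∫⁻ x, D.uu x ∂D.mu0 ≤ ∫⁻ _, ENNReal.ofReal 2 ∂D.mu0 := by
        apply lintegral_mono_ae
        filter_upwards [D.mu0_ae] with x hx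
        exact ENNReal.ofReal_le_ofReal (D.u_le hx).2
    _ < ∞ := by simp

lemma kant_le : kantorovich D.mu0 ≤ 3 * ∫⁻ x, D.uu x ∂D.mu0 := by
  obtain ⟨-, h1, h2, h3⟩ := D.pi0_coupling
  refine (iInf₂_le D.pi0 D.pi0_coupling).trans (le_of_eq ?_)
  rw [← D.lintegral_three D.pi0 measurable_fst measurable_snd.fst measurable_snd.snd h1 h2 h3]
  apply lintegral_congr_ae
  have hm : MeasurableSet {x : R3 × R3 × R3 |
      coulomb x.1 x.2.1 x.2.2 = D.uu x.1 + D.uu x.2.1 + D.uu x.2.2} :=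
    measurableSet_eq_fun measurable_coulomb (((D.muu.comp measurable_fst).add
      (D.muu.comp measurable_snd.fst)).add (D.muu.comp measurable_snd.snd))
  unfold pi0
  apply Measure.ae_smul_measure
  rw [ae_finsetSum_measure_iff]
  intro i _
  have key : ∀ a ∈ D.B, coulomb a (D.S i a) (D.R i a) =
      D.uu a + D.uu (D.S i a) + D.uu (D.R i a) := fun a ha => by
    rw [D.uu_add (Or.inl ha) (Or.inr ⟨i, a, ha, Or.inl rfl⟩) (Or.inr ⟨i, a, ha, Or.inr rfl⟩)]
    exact D.exact_eq ha i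
  rw [ae_add_measure_iff, ae_add_measure_iff, ae_map_iff (D.m1 i).aemeasurable hm,
    ae_map_iff (D.m2 i).aemeasurable hm, ae_map_iff (D.m3 i).aemeasurable hm]
  refine ⟨⟨?_, ?_⟩, ?_⟩
  · filter_upwards [D.lam_ae] with a ha
    exact key a ha
  · filter_upwards [D.lam_ae] with a ha
    rw [← coulomb_rot, key a ha]; ring
  · filter_upwards [D.lam_ae] with a ha
    rw [coulomb_rot, key a ha]; ring

lemma R_notMem_B {a : R3} (ha : a ∈ D.B) (i : Fin 3) : D.R i a ∉ D.B := by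
  intro h
  have h1 := (D.dist_aR h ha i).1
  simp at h1
  linarith

lemma S_ne_R {a a' : R3} (ha : a ∈ D.B) (ha' : a' ∈ D.B) (i j : Fin 3) : D.S i a ≠ D.R j a' := by
  intro h
  have h1 := D.memS i a ha
  have h2 := D.memR j a' ha'
  rw [h] at h1
  refine far_of_near (q' := -pp j) h1 ?_ (by rw [sub_neg_eq_add]; linarith)
  rw [sub_neg_eq_add]
  by_cases hij : i = j
  · subst hij; rw [norm_pp_add_self]; norm_num
  · exact one_le_of_sq (norm_nonneg _) (norm_pp_add_sq hij)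

lemma R_ne_R {a a' : R3} (ha : a ∈ D.B) (ha' : a' ∈ D.B) {i j : Fin 3} (hij : i ≠ j) :
    D.R i a ≠ D.R j a' := by
  intro h
  have h1 := D.memR i a ha
  have h2 := D.memR j a' ha'
  rw [h, ← sub_neg_eq_add] at h1
  refine far_of_near (q' := -pp j) h1 ?_ (by rw [sub_neg_eq_add]; linarith)
  rw [neg_sub_neg]
  exact one_le_of_sq (norm_nonneg _) (norm_pp_sub_sq hij.symm)

lemma monge_gt {T₂ T₃ : R3 → R3} (h₂ : Measurable T₂) (h₃ : Measurable T₃)
    (e₂ : D.mu0.map T₂ = D.mu0) (e₃ : D.mu0.map T₃ = D.mu0) :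
    3 * ∫⁻ x, D.uu x ∂D.mu0 < ∫⁻ x, coulomb x (T₂ x) (T₃ x) ∂D.mu0 := by
  have := D.lam_prob
  by_contra hcon
  push Not at hcon
  have hV := D.lintegral_three D.mu0 measurable_id h₂ h₃ Measure.map_id e₂ e₃
  simp only [id] at hV
  have a2 : ∀ᵐ x ∂D.mu0, T₂ x ∈ D.B ∪ D.Sh :=
    ae_of_ae_map h₂.aemeasurable (by rw [e₂]; exact D.mu0_ae)
  have a3 : ∀ᵐ x ∂D.mu0, T₃ x ∈ D.B ∪ D.Sh :=
    ae_of_ae_map h₃.aemeasurable (by rw [e₃]; exact D.mu0_ae)
  have hle : (fun x => D.uu x + D.uu (T₂ x) + D.uu (T₃ x)) ≤ᵐ[D.mu0]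
      fun x => coulomb x (T₂ x) (T₃ x) := by
    filter_upwards [D.mu0_ae, a2, a3] with x hx hy hz
    rw [D.uu_add hx hy hz]
    exact D.ineq hx hy hz
  have heq := ae_eq_of_ae_le_of_lintegral_le hle (by rw [hV]; exact D.V_lt_top.ne)
    (measurable_coulomb.comp (measurable_id.prodMk (h₂.prodMk h₃))).aemeasurable
    (by rw [hV]; exact hcon)
  set A : Fin 3 → Set R3 := fun i => D.B ∩ ({x | T₂ x = D.R i x} ∪ {x | T₃ x = D.R i x}) with hA
  have hAm : ∀ i, MeasurableSet (A i) := fun i =>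
    D.mB.inter ((measurableSet_eq_fun h₂ (D.mR i)).union (measurableSet_eq_fun h₃ (D.mR i)))
  have hcover : ∀ᵐ x ∂D.mu0, x ∈ D.B → ∃ i, x ∈ A i := by
    filter_upwards [heq, a2, a3] with x hx hy hz hB
    rw [D.uu_add (Or.inl hB) hy hz] at hx
    obtain ⟨i, hi⟩ := (D.core1 hB hy hz).2 hx.symm.le
    exact ⟨i, hB, hi⟩
  have hlam_le : ∀ s, MeasurableSet s → (9 : ℝ≥0∞)⁻¹ * (3 * D.lam s) ≤ D.mu0 s := by
    intro s hs
    rw [D.mu0_apply hs]
    gcongr
    calc 3 * D.lam s = ∑ _i : Fin 3, D.lam s := by simp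
      _ ≤ _ := Finset.sum_le_sum fun i _ => le_add_right (le_add_right le_rfl)
  have hnull : ∀ i, D.lam (A i) = 0 := by
    intro i
    set W := D.R i '' A i with hW
    have hWm : MeasurableSet W :=
      (hAm i).image_of_measurable_injOn (D.mR i) ((D.injR i).mono Set.inter_subset_left)
    have h1 : D.mu0 (A i) ≤ D.mu0 W + D.mu0 W := by
      calc D.mu0 (A i) ≤ D.mu0 (T₂ ⁻¹' W ∪ T₃ ⁻¹' W) := by
            apply measure_mono
            intro x hx
            rcases hx.2 with h | h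
            · exact Or.inl ⟨x, hx, h.symm⟩
            · exact Or.inr ⟨x, hx, h.symm⟩
        _ ≤ D.mu0 (T₂ ⁻¹' W) + D.mu0 (T₃ ⁻¹' W) := measure_union_le _ _
        _ = _ := by
            rw [← Measure.map_apply h₂ hWm, ← Measure.map_apply h₃ hWm, e₂, e₃]
    have h2 : D.mu0 W = (9 : ℝ≥0∞)⁻¹ * D.lam (A i) := by
      rw [D.mu0_apply hWm, Finset.sum_eq_single i]
      · rw [D.lam_zero, D.lam_zero, zero_add, zero_add]
        · congr 1
          apply D.lam_congr
          ext x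
          constructor
          · rintro ⟨hx, a, ha, h⟩
            rw [← D.injR i ha.1 hx h]
            exact ⟨ha.1, ha⟩
          · rintro ⟨hx, hx'⟩
            exact ⟨hx, x, hx', rfl⟩
        · rintro x hx ⟨a, ha, h⟩
          exact D.S_ne_R hx ha.1 i i h.symm
        · rintro x hx ⟨a, ha, h⟩
          exact D.R_notMem_B ha.1 i (h ▸ hx)
      · intro j _ hj
        rw [D.lam_zero, D.lam_zero, D.lam_zero]
        · simp
        · rintro x hx ⟨a, ha, h⟩
          exact D.R_ne_R hx ha.1 hj h.symm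
        · rintro x hx ⟨a, ha, h⟩
          exact D.S_ne_R hx ha.1 j i h.symm
        · rintro x hx ⟨a, ha, h⟩
          exact D.R_notMem_B ha.1 i (h ▸ hx)
      · simp
    have h3 := (hlam_le _ (hAm i)).trans h1
    rw [h2, ← mul_add, ENNReal.mul_le_mul_iff_right (by norm_num) (by norm_num)] at h3
    have hfin : D.lam (A i) ≠ ∞ := measure_ne_top _ _
    have h4 : D.lam (A i) + D.lam (A i) + D.lam (A i) ≤ D.lam (A i) + D.lam (A i) + 0 := by
      calc D.lam (A i) + D.lam (A i) + D.lam (A i) = 3 * D.lam (A i) := by ring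
        _ ≤ _ := by rw [add_zero]; exact h3
    rw [ENNReal.add_le_add_iff_left (by simp [hfin])] at h4
    exact nonpos_iff_eq_zero.1 h4
  have hac : D.lam ≪ D.mu0 := by
    refine Measure.AbsolutelyContinuous.mk fun s hs h0 => ?_
    have := hlam_le s hs
    rw [h0, nonpos_iff_eq_zero] at this
    simpa using this
  have h5 : ∀ᵐ x ∂D.lam, ∀ i, x ∉ A i := ae_all_iff.2 fun i => measure_eq_zero_iff_ae_notMem.1 (hnull i)
  have h6 : ∀ᵐ x ∂D.lam, x ∈ D.B → ∃ i, x ∈ A i := hac.ae_le hcover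
  obtain ⟨x, hx1, hx2, hx3⟩ := (D.lam_ae.and (h6.and h5)).exists
  obtain ⟨i, hi⟩ := hx2 hx1
  exact hx3 i hi

end Data

theorem main : ∃ μ : Measure R3, IsProbabilityMeasure μ ∧ μ ≪ volume ∧ kantorovich μ < ∞ ∧
    ∀ T₂ T₃ : R3 → R3, Measurable T₂ → Measurable T₃ → μ.map T₂ = μ → μ.map T₃ = μ →
      kantorovich μ < ∫⁻ x, coulomb x (T₂ x) (T₃ x) ∂μ := by
  obtain ⟨D⟩ := exists_data
  exact ⟨D.mu0, D.mu0_prob, D.mu0_ac, D.kant_le.trans_lt D.V_lt_top,
    fun T₂ T₃ h₂ h₃ e₂ e₃ => D.kant_le.trans_lt (D.monge_gt h₂ h₃ e₂ e₃)⟩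

end Vale.Agent.P121
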